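import Vale.Agent.P228.GlobB
import Vale.Agent.P228.TwoF

namespace Vale.Agent.Results.P228.HilbertSmith

universe u

/-- The Hilbert-Smith conjecture in its `p`-adic form: the additive group of `p`-adic integers has
no faithful jointly continuous action on a connected Hausdorff topological `n`-manifold. -/
theorem result (n p : ℕ) [Fact p.Prime] (M : Type u) [TopologicalSpace M] [T2Space M]
    [ConnectedSpace M] [ChartedSpace (EuclideanSpace ℝ (Fin n)) M]
    [AddAction ℤ_[p] M] [ContinuousVAdd ℤ_[p] M] : ¬ FaithfulVAdd ℤ_[p] M :=
  Vale.Agent.P228.global (Vale.Agent.P228.localThm p) n M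

end Vale.Agent.Results.P228.HilbertSmith
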